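import Vale.Agent.Lib.P358.Product

/-!
# P358: additivity of the Holevo capacity of the amplitude damping channel

For the amplitude damping channel `A_{γ,0}` (the case `ν = 0` of the generalized amplitude damping
family) and every number of uses `n ≥ 1`, entangled inputs do not help:
`χ(A_{γ,0}^{⊗n}) = n χ(A_{γ,0})`.  Hence its classical capacity equals its Holevo capacity and is
given by the explicit one-parameter formula.
-/

namespace Vale.Agent.Results.P358.AmpDampEquality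

open Vale.Agent.Lib.P358 Real

/-- The main theorem: for the amplitude damping channel `A_{γ,0}`, `γ ∈ [0,1]`:
1. the supremum defining `χ(A_{γ,0}^{⊗n})` is over a bounded set;
2. `χ(A_{γ,0}^{⊗n}) = n χ(A_{γ,0})` for every `n ≥ 1`;
3. the capacity `C = sup_{n ≥ 1} χ(A_{γ,0}^{⊗n})/n` equals `χ(A_{γ,0})`;
4. `χ(A_{γ,0})`, hence `C`, is the supremum over `w ∈ [0,1]` of
   `h₂((1-γ)w) - h₂((1+√(1-4γ(1-γ)w²))/2)`, in bits;
5. `adPow γ 1` is the channel of the problem: it acts on matrix entries as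
   `ρ₀₀ ↦ ρ₀₀ + γ ρ₁₁`, `ρ₀₁ ↦ √(1-γ) ρ₀₁`, `ρ₁₀ ↦ √(1-γ) ρ₁₀`, `ρ₁₁ ↦ (1-γ) ρ₁₁`. -/
theorem result {γ : ℝ} (h0 : 0 ≤ γ) (h1 : γ ≤ 1) :
    (∀ n : ℕ, 1 ≤ n → BddAbove (holevoSet γ n)) ∧
    (∀ n : ℕ, 1 ≤ n → chiPow γ n = n * chiPow γ 1) ∧
    IsLUB {c : ℝ | ∃ n : ℕ, 1 ≤ n ∧ c = chiPow γ n / n} (chiPow γ 1) ∧
    IsLUB {c : ℝ | ∃ w ∈ Set.Icc (0 : ℝ) 1,
        c = (h2 ((1 - γ) * w) - h2 ((1 + Real.sqrt (1 - 4 * γ * (1 - γ) * w ^ 2)) / 2)) / Real.log 2}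
      (chiPow γ 1) ∧
    (∀ ρ : Matrix (Fin 1 → Fin 2) (Fin 1 → Fin 2) ℂ,
      adPow γ 1 ρ (fun _ => 0) (fun _ => 0) = ρ (fun _ => 0) (fun _ => 0) + (γ : ℂ) * ρ (fun _ => 1) (fun _ => 1) ∧
      adPow γ 1 ρ (fun _ => 0) (fun _ => 1) = ((Real.sqrt (1 - γ) : ℝ) : ℂ) * ρ (fun _ => 0) (fun _ => 1) ∧
      adPow γ 1 ρ (fun _ => 1) (fun _ => 0) = ((Real.sqrt (1 - γ) : ℝ) : ℂ) * ρ (fun _ => 1) (fun _ => 0) ∧
      adPow γ 1 ρ (fun _ => 1) (fun _ => 1) = ((1 - γ : ℝ) : ℂ) * ρ (fun _ => 1) (fun _ => 1)) := by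
  have hb1 : BddAbove (holevoSet γ 1) := holevoSet_bddAbove h0 h1 le_rfl
  refine ⟨fun n hn => holevoSet_bddAbove h0 h1 hn, fun n hn => chiPow_eq h0 h1 hn, ⟨?_, ?_⟩, ⟨?_, ?_⟩,
    fun ρ => adPow_one_entries h0 h1 ρ⟩
  · rintro c ⟨n, hn, rfl⟩
    have hn0 : (0 : ℝ) < n := by exact_mod_cast hn
    rw [div_le_iff₀ hn0]
    have := chiPow_le h0 h1 hn
    linarith
  · intro u hu
    have := hu ⟨1, le_rfl, rfl⟩
    simpa using this
  · rintro c ⟨w, hw, rfl⟩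
    rw [← scal_normal_eq]
    exact le_csSup hb1 (single_letter_mem h0 h1 hw)
  · intro u hu
    refine csSup_le (holevoSet_nonempty h0 h1 1) ?_
    rintro χ ⟨m, q, ρ, hq, hq1, hρ, rfl⟩
    obtain ⟨w, hw, hle⟩ := holevo_le h0 h1 le_rfl q ρ hq hq1 hρ
    have h3 := hu ⟨w, hw, rfl⟩
    rw [← scal_normal_eq] at h3
    have : ((1 : ℕ) : ℝ) * ((h2 ((1 - γ) * w) - scal γ (1 - w) w) / Real.log 2) =
        (h2 ((1 - γ) * w) - scal γ (1 - w) w) / Real.log 2 := by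
      simp
    rw [this] at hle
    exact hle.trans h3

end Vale.Agent.Results.P358.AmpDampEquality
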