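import Vale.Agent.Lib.P358.GProduct

/-!
# P358: additivity of the Holevo capacity of the generalized amplitude damping channel

For every `γ, ν ∈ [0,1]` and every number of uses `n ≥ 1`, entangled inputs do not help:
`χ(A_{γ,ν}^{⊗n}) = n χ(A_{γ,ν})`.  Hence the classical capacity of `A_{γ,ν}` equals its Holevo
capacity, and it is given by an explicit one-parameter formula.
-/

namespace Vale.Agent.Results.P358.GadcAdditivity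

open Vale.Agent.Lib.P358 Real

/-- The main theorem: for the generalized amplitude damping channel `A_{γ,ν}`, `γ, ν ∈ [0,1]`:
1. the supremum defining `χ(A_{γ,ν}^{⊗n})` is over a bounded set;
2. `χ(A_{γ,ν}^{⊗n}) = n χ(A_{γ,ν})` for every `n ≥ 1`;
3. the capacity `C = sup_{n ≥ 1} χ(A_{γ,ν}^{⊗n})/n` equals `χ(A_{γ,ν})`;
4. `χ(A_{γ,ν})`, hence `C`, is the supremum over `w ∈ [0,1]` of
   `h₂((1-γ)w + γν) - h₂((1+√(1 - 4γ(1-γ)(w-ν)² - 4γν(1-ν)))/2)`, in bits;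
5. `gadPow γ ν 1` is the channel of the problem: it acts on matrix entries as
   `ρ₀₀ ↦ (1-νγ) ρ₀₀ + (1-ν)γ ρ₁₁`, `ρ₀₁ ↦ √(1-γ) ρ₀₁`, `ρ₁₀ ↦ √(1-γ) ρ₁₀`,
   `ρ₁₁ ↦ νγ ρ₀₀ + (1-(1-ν)γ) ρ₁₁`. -/
theorem result {γ ν : ℝ} (hγ0 : 0 ≤ γ) (hγ1 : γ ≤ 1) (hν0 : 0 ≤ ν) (hν1 : ν ≤ 1) :
    (∀ n : ℕ, 1 ≤ n → BddAbove (holevoSetG γ ν n)) ∧
    (∀ n : ℕ, 1 ≤ n → chiPowG γ ν n = n * chiPowG γ ν 1) ∧
    IsLUB {c : ℝ | ∃ n : ℕ, 1 ≤ n ∧ c = chiPowG γ ν n / n} (chiPowG γ ν 1) ∧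
    IsLUB {c : ℝ | ∃ w ∈ Set.Icc (0 : ℝ) 1,
        c = (h2 ((1 - γ) * w + γ * ν) -
          h2 ((1 + Real.sqrt (1 - 4 * γ * (1 - γ) * (w - ν) ^ 2 - 4 * γ * ν * (1 - ν))) / 2)) /
            Real.log 2}
      (chiPowG γ ν 1) ∧
    (∀ ρ : Matrix (Fin 1 → Fin 2) (Fin 1 → Fin 2) ℂ,
      gadPow γ ν 1 ρ (fun _ => 0) (fun _ => 0) =
          ((1 - ν * γ : ℝ) : ℂ) * ρ (fun _ => 0) (fun _ => 0) +
            (((1 - ν) * γ : ℝ) : ℂ) * ρ (fun _ => 1) (fun _ => 1) ∧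
      gadPow γ ν 1 ρ (fun _ => 0) (fun _ => 1) =
          ((Real.sqrt (1 - γ) : ℝ) : ℂ) * ρ (fun _ => 0) (fun _ => 1) ∧
      gadPow γ ν 1 ρ (fun _ => 1) (fun _ => 0) =
          ((Real.sqrt (1 - γ) : ℝ) : ℂ) * ρ (fun _ => 1) (fun _ => 0) ∧
      gadPow γ ν 1 ρ (fun _ => 1) (fun _ => 1) =
          ((ν * γ : ℝ) : ℂ) * ρ (fun _ => 0) (fun _ => 0) +
            ((1 - (1 - ν) * γ : ℝ) : ℂ) * ρ (fun _ => 1) (fun _ => 1)) := by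
  have hb1 : BddAbove (holevoSetG γ ν 1) := holevoSetG_bddAbove hγ0 hγ1 hν0 hν1 le_rfl
  have hval : ∀ w : ℝ, gadScal γ ν (1 - w) w =
      h2 ((1 + Real.sqrt (1 - 4 * γ * (1 - γ) * (w - ν) ^ 2 - 4 * γ * ν * (1 - ν))) / 2) := by
    intro w
    rw [gadScal_normal]
    rfl
  refine ⟨fun n hn => holevoSetG_bddAbove hγ0 hγ1 hν0 hν1 hn,
    fun n hn => chiPowG_eq hγ0 hγ1 hν0 hν1 hn, ⟨?_, ?_⟩, ⟨?_, ?_⟩,
    fun ρ => gadPow_one_entries hγ0 hγ1 hν0 hν1 ρ⟩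
  · rintro c ⟨n, hn, rfl⟩
    have hn0 : (0 : ℝ) < n := by exact_mod_cast hn
    rw [div_le_iff₀ hn0]
    have := chiPowG_le hγ0 hγ1 hν0 hν1 hn
    linarith
  · intro u hu
    have := hu ⟨1, le_rfl, rfl⟩
    simpa using this
  · rintro c ⟨w, hw, rfl⟩
    rw [← hval]
    exact le_csSup hb1 (single_letter_memG hγ0 hγ1 hν0 hν1 hw)
  · intro u hu
    refine csSup_le (holevoSetG_nonempty γ ν 1) ?_
    rintro χ ⟨m, q, ρ, hq, hq1, hρ, rfl⟩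
    obtain ⟨w, hw, hle⟩ := holevo_leG hγ0 hγ1 hν0 hν1 le_rfl q ρ hq hq1 hρ
    have h3 := hu ⟨w, hw, rfl⟩
    rw [← hval] at h3
    have : ((1 : ℕ) : ℝ) * ((h2 ((1 - γ) * w + γ * ν) - gadScal γ ν (1 - w) w) / Real.log 2) =
        (h2 ((1 - γ) * w + γ * ν) - gadScal γ ν (1 - w) w) / Real.log 2 := by
      simp
    rw [this] at hle
    exact hle.trans h3

end Vale.Agent.Results.P358.GadcAdditivity
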